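import Mathlib
import Vale.Agent.Lib.P199.Core

/-!
# A special case of Kurosh's problem for division rings (P199)

Let `F` be a field such that

* every finite-dimensional division algebra over `F` is commutative, and
* every finite field extension `K ≠ F` of `F` has a nontrivial `F`-automorphism.

Then every division ring `D` which is algebraic over `F` and has center `F` is equal to `F`.
In particular such a `D` is locally finite.  The proof uses the conjugacy theorem of Dickson
(two elements of `D` with the same minimal polynomial over the center are conjugate), proved in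
`Vale.Agent.Lib.P199.Dickson`.
-/

namespace Vale.Agent.Results.P199.KuroshNonrigidBrauerTrivial

open Polynomial

universe u

theorem result {F : Type u} [Field F]
    (H1 : ∀ (E : Type u) [DivisionRing E] [Algebra F E] [FiniteDimensional F E],
      ∀ x y : E, x * y = y * x)
    (H2 : ∀ (K : Type u) [Field K] [Algebra F K] [FiniteDimensional F K],
      ¬ Function.Surjective (algebraMap F K) → ∃ σ : K ≃ₐ[F] K, σ ≠ AlgEquiv.refl)
    (D : Type u) [DivisionRing D] [Algebra F D] [Algebra.IsAlgebraic F D]
    (hcenter : Subalgebra.center F D = ⊥) :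
    Function.Surjective (algebraMap F D) := by
  have hc : ∀ z : D, (∀ y : D, z * y = y * z) → z ∈ (algebraMap F D).range := by
    intro z hz
    have hz' : z ∈ Subalgebra.center F D :=
      Subalgebra.mem_center_iff.mpr fun y => (hz y).symm
    rw [hcenter, Algebra.mem_bot] at hz'
    exact hz'
  intro d
  by_contra hd
  have hint : IsIntegral F d := (Algebra.IsAlgebraic.isAlgebraic d).isIntegral
  set f := minpoly F d with hf
  have hirr : Irreducible f := minpoly.irreducible hint
  have : Fact (Irreducible f) := ⟨hirr⟩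
  have hmonic : f.Monic := minpoly.monic hint
  have hdeg : 2 ≤ f.natDegree := (minpoly.two_le_natDegree_iff hint).mpr hd
  have : FiniteDimensional F (AdjoinRoot f) := hmonic.finite_adjoinRoot
  have hns : ¬ Function.Surjective (algebraMap F (AdjoinRoot f)) := by
    intro hs
    obtain ⟨c, hc⟩ := hs (AdjoinRoot.root f)
    have h0 : AdjoinRoot.mk f (X - C c) = 0 := by
      rw [map_sub, AdjoinRoot.mk_X, AdjoinRoot.mk_C, ← hc, AdjoinRoot.algebraMap_eq, sub_self]
    have hdvd := AdjoinRoot.mk_eq_zero.mp h0
    have hle := natDegree_le_of_dvd hdvd (X_sub_C_ne_zero c)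
    rw [natDegree_X_sub_C] at hle
    omega
  obtain ⟨σ, hσ⟩ := H2 (AdjoinRoot f) hns
  have hroot : σ (AdjoinRoot.root f) ≠ AdjoinRoot.root f := by
    intro h
    apply hσ
    have h3 : (σ : AdjoinRoot f →ₐ[F] AdjoinRoot f) = AlgHom.id F (AdjoinRoot f) :=
      AdjoinRoot.algHom_ext (by simpa using h)
    ext z
    exact DFunLike.congr_fun h3 z
  obtain ⟨p, hp⟩ := AdjoinRoot.mk_surjective (σ (AdjoinRoot.root f))
  have h1 : f ∣ f.comp p := by
    rw [← AdjoinRoot.mk_eq_zero, ← AdjoinRoot.aeval_eq, aeval_comp, AdjoinRoot.aeval_eq, hp]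
    have h4 : aeval ((σ : AdjoinRoot f →ₐ[F] AdjoinRoot f) (AdjoinRoot.root f)) f
        = (σ : AdjoinRoot f →ₐ[F] AdjoinRoot f) (aeval (AdjoinRoot.root f) f) :=
      aeval_algHom_apply _ _ _
    have h5 : aeval (AdjoinRoot.root f) f = 0 := by
      rw [AdjoinRoot.aeval_eq, AdjoinRoot.mk_self]
    rw [h5, map_zero] at h4
    exact h4
  have h2 : ¬ f ∣ p - X := by
    rw [← AdjoinRoot.mk_eq_mk, hp, AdjoinRoot.mk_X]
    exact hroot
  have hb1 : aeval d (f.comp p) = 0 := by
    obtain ⟨q, hq⟩ := h1
    rw [hq, map_mul, hf, minpoly.aeval, zero_mul]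
  have hb2 : aeval d p ≠ d := by
    intro h
    apply h2
    apply minpoly.dvd
    rw [map_sub, aeval_X, h, sub_self]
  have hmin : minpoly F (aeval d p) = minpoly F d := by
    symm
    apply minpoly.eq_of_irreducible_of_monic hirr _ hmonic
    rw [← aeval_comp]
    exact hb1
  obtain ⟨x, hx1, hx2⟩ := Vale.Agent.Lib.P199.exists_noncomm_finite hc d p hmin hb2
  let _ : DivisionRing (Algebra.adjoin F {d, x}) :=
    divisionRingOfFiniteDimensional F (Algebra.adjoin F {d, x})
  have hcomm := H1 (Algebra.adjoin F {d, x})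
    ⟨x, Algebra.subset_adjoin (by simp)⟩ ⟨d, Algebra.subset_adjoin (by simp)⟩
  exact hx1 (congrArg Subtype.val hcomm)

end Vale.Agent.Results.P199.KuroshNonrigidBrauerTrivial
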