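import Mathlib
import Vale.Agent.Lib.P199.Nonrigid

/-!
# Non-rigid elements and finite-dimensional subalgebras of algebraic division rings (P199)

Let `D` be a division ring that is an algebra over a field `F`, algebraic over `F`, with
center `F`.

1. If `d ∈ D` and `p` is a polynomial over `F` such that `p(d) ≠ d` and `p(d)` has the same
   minimal polynomial over `F` as `d` (so `d ↦ p(d)` is a nontrivial `F`-automorphism of the
   field `F(d)`), then there is a nonzero `u ∈ D` with `u * d = p(d) * u`; this `u` does not
   commute with `d`, and the subalgebra generated by `d` and `u` is finite-dimensional over `F`.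
2. If every finite field extension `K ≠ F` of `F` has a nontrivial `F`-automorphism, then for
   every `d ∈ D` outside `F` there is `u ∈ D` not commuting with `d` such that `d` and `u`
   generate a finite-dimensional subalgebra.
3. If moreover every finite-dimensional division algebra over `F` is commutative, then `D = F`.
-/

namespace Vale.Agent.Results.P199.KuroshNonrigidSubalgebras

open Polynomial

universe u

theorem result {F : Type u} [Field F] (D : Type u) [DivisionRing D] [Algebra F D]
    [Algebra.IsAlgebraic F D] (hcenter : Subalgebra.center F D = ⊥) :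
    (∀ (d : D) (p : F[X]), minpoly F (aeval d p) = minpoly F d → aeval d p ≠ d →
      ∃ u : D, u ≠ 0 ∧ u * d = aeval d p * u ∧ u * d ≠ d * u ∧
        FiniteDimensional F (Algebra.adjoin F {d, u})) ∧
    ((∀ (K : Type u) [Field K] [Algebra F K] [FiniteDimensional F K],
        ¬ Function.Surjective (algebraMap F K) → ∃ σ : K ≃ₐ[F] K, σ ≠ AlgEquiv.refl) →
      (∀ d : D, d ∉ (algebraMap F D).range →
        ∃ u : D, u * d ≠ d * u ∧ FiniteDimensional F (Algebra.adjoin F {d, u})) ∧
      ((∀ (E : Type u) [DivisionRing E] [Algebra F E] [FiniteDimensional F E],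
          ∀ x y : E, x * y = y * x) →
        Function.Surjective (algebraMap F D))) := by
  have key : ∀ (d : D) (p : F[X]), minpoly F (aeval d p) = minpoly F d → aeval d p ≠ d →
      ∃ u : D, u ≠ 0 ∧ u * d = aeval d p * u ∧ u * d ≠ d * u ∧
        FiniteDimensional F (Algebra.adjoin F {d, u}) :=
    fun d p h1 h2 => Vale.Agent.Lib.P199.exists_conj_finite hcenter d p h1 h2
  refine ⟨key, fun H2 => ?_⟩
  have cover : ∀ d : D, d ∉ (algebraMap F D).range →
      ∃ u : D, u * d ≠ d * u ∧ FiniteDimensional F (Algebra.adjoin F {d, u}) := by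
    intro d hd
    obtain ⟨p, h1, h2⟩ := Vale.Agent.Lib.P199.exists_poly_of_nonrigid H2 d
      (Algebra.IsAlgebraic.isAlgebraic d).isIntegral hd
    obtain ⟨u, -, -, hu, hfin⟩ := key d p h1 h2
    exact ⟨u, hu, hfin⟩
  refine ⟨cover, fun H1 d => ?_⟩
  by_contra hd
  have hd' : d ∉ (algebraMap F D).range := fun h => hd h
  obtain ⟨u, hu, hfin⟩ := cover d hd'
  let _ : DivisionRing (Algebra.adjoin F {d, u}) :=
    divisionRingOfFiniteDimensional F (Algebra.adjoin F {d, u})
  have hcomm := H1 (Algebra.adjoin F {d, u})
    ⟨u, Algebra.subset_adjoin (by simp)⟩ ⟨d, Algebra.subset_adjoin (by simp)⟩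
  exact hu (congrArg Subtype.val hcomm)

end Vale.Agent.Results.P199.KuroshNonrigidSubalgebras
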