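import Mathlib
import Vale.Agent.Lib.P199.Separable

/-!
# Kurosh's problem over centers whose separable extensions are non-rigid (P199)

Let `F` be a field such that every finite separable field extension `K ≠ F` of `F` has a
nontrivial `F`-automorphism, and let `D` be a division ring that is an algebra over `F`,
algebraic over `F`, with center `F`.

1. For every `d ∈ D` outside `F` that is separable over `F` there is `u ∈ D` not commuting with
   `d` such that `d` and `u` generate a finite-dimensional subalgebra.
2. If `D ≠ F`, then `D` contains two non-commuting elements that generate a finite-dimensional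
   subalgebra (by the Jacobson-Noether theorem, `D` has a separable element outside `F`).
3. If moreover every finite-dimensional division algebra over `F` is commutative, then `D = F`.
-/

namespace Vale.Agent.Results.P199.KuroshSeparablyNonrigid

open Polynomial

universe u

theorem result {F : Type u} [Field F] (D : Type u) [DivisionRing D] [Algebra F D]
    [Algebra.IsAlgebraic F D] (hcenter : Subalgebra.center F D = ⊥)
    (H2 : ∀ (K : Type u) [Field K] [Algebra F K] [FiniteDimensional F K]
      [Algebra.IsSeparable F K],
      ¬ Function.Surjective (algebraMap F K) → ∃ σ : K ≃ₐ[F] K, σ ≠ AlgEquiv.refl) :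
    (∀ d : D, d ∉ (algebraMap F D).range → IsSeparable F d →
      ∃ u : D, u * d ≠ d * u ∧ FiniteDimensional F (Algebra.adjoin F {d, u})) ∧
    (¬ Function.Surjective (algebraMap F D) →
      ∃ d u : D, u * d ≠ d * u ∧ FiniteDimensional F (Algebra.adjoin F {d, u})) ∧
    ((∀ (E : Type u) [DivisionRing E] [Algebra F E] [FiniteDimensional F E],
        ∀ x y : E, x * y = y * x) →
      Function.Surjective (algebraMap F D)) := by
  have cover : ∀ d : D, d ∉ (algebraMap F D).range → IsSeparable F d →
      ∃ u : D, u * d ≠ d * u ∧ FiniteDimensional F (Algebra.adjoin F {d, u}) := by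
    intro d hd hsep
    obtain ⟨p, h1, h2⟩ := Vale.Agent.Lib.P199.exists_poly_of_sep_nonrigid H2 d hsep hd
    obtain ⟨u, -, -, hu, hfin⟩ := Vale.Agent.Lib.P199.exists_conj_finite hcenter d p h1 h2
    exact ⟨u, hu, hfin⟩
  have pair : ¬ Function.Surjective (algebraMap F D) →
      ∃ d u : D, u * d ≠ d * u ∧ FiniteDimensional F (Algebra.adjoin F {d, u}) := by
    intro hns
    obtain ⟨d, hd, hsep⟩ := Vale.Agent.Lib.P199.exists_separable_not_mem_range hcenter hns
    obtain ⟨u, hu, hfin⟩ := cover d hd hsep
    exact ⟨d, u, hu, hfin⟩
  refine ⟨cover, pair, fun H1 => ?_⟩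
  by_contra hns
  obtain ⟨d, u, hu, hfin⟩ := pair hns
  let _ : DivisionRing (Algebra.adjoin F {d, u}) :=
    divisionRingOfFiniteDimensional F (Algebra.adjoin F {d, u})
  have hcomm := H1 (Algebra.adjoin F {d, u})
    ⟨u, Algebra.subset_adjoin (by simp)⟩ ⟨d, Algebra.subset_adjoin (by simp)⟩
  exact hu (congrArg Subtype.val hcomm)

end Vale.Agent.Results.P199.KuroshSeparablyNonrigid
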